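import Vale.Agent.P091.PET.H514.Avg
import Vale.Agent.P091.CH.H69.HL
import Vale.Agent.P091.H74.Spec

/-!
# P091, row S7 = LETTER (helper69)

Changing the letter of the dyadic shift (514): the cost of replacing `e(-ν y / n)` by
`e(-c y / n)` on all intervals of length at most `4 r 2^(kap-1)` is geometric,
`≤ C |ν - c| r 2^kap / n * MX p x`.  Everything pointwise in the grid `(r, a)` and in `x`.
-/

open Finset

namespace Vale.Agent.P091.TOP.H69

open Vale.Agent.P091.CH Vale.Agent.P091.CH.H69 Vale.Agent.P091.PET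
open Vale.Agent.P091.Spec (e)

variable {K : ℕ}

/-! ## interval sums and the maximal function -/

theorem Ico_split {a b c : ℤ} (hab : a ≤ b) (hbc : b ≤ c) (G : ℤ → ℝ) :
    ∑ v ∈ Ico a c, G v = ∑ v ∈ Ico a b, G v + ∑ v ∈ Ico b c, G v := by
  rw [← sum_union]
  · congr 1
    ext z
    simp only [mem_Ico, mem_union]
    omega
  · rw [disjoint_left]
    intro z hz hz'
    simp only [mem_Ico] at hz hz'
    omega

theorem cast_inj {u v : ℤ} (h : ((u : ℤ) : X K) = ((v : ℤ) : X K)) (huv : |u - v| < 2 ^ K) :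
    u = v := by
  have h1 : ((2 ^ K : ℕ) : ℤ) ∣ (v - u) := by
    have := (ZMod.intCast_eq_intCast_iff_dvd_sub u v (2 ^ K)).1 h
    exact this
  by_contra hne
  have h2 : ((2 ^ K : ℕ) : ℤ) ≤ |v - u| := by
    have h3 : v - u ≠ 0 := by omega
    have h4 := Int.le_of_dvd (abs_pos.2 h3) ((dvd_abs _ _).2 h1)
    exact h4
  rw [abs_sub_comm] at huv
  push_cast at h2
  omega

/-- a full period of integers is the whole grid -/
theorem sum_period (left : ℤ) (a : ℤ) (G : X K → ℝ) :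
    ∑ v ∈ Ico a (a + 2 ^ K), G (((left + v : ℤ)) : X K) = ∑ y, G y := by
  have hinj : Set.InjOn (fun v : ℤ => ((left + v : ℤ) : X K)) (Ico a (a + 2 ^ K) : Finset ℤ) := by
    intro u hu v hv huv
    rw [coe_Ico, Set.mem_Ico] at hu hv
    have := cast_inj (K := K) huv (by rw [abs_lt]; constructor <;> omega)
    omega
  have himg : (Ico a (a + 2 ^ K)).image (fun v : ℤ => ((left + v : ℤ) : X K)) = univ := by
    apply eq_univ_of_card
    rw [card_image_of_injOn hinj, Int.card_Ico, ZMod.card]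
    have : a + 2 ^ K - a = ((2 ^ K : ℕ) : ℤ) := by push_cast; ring
    rw [this, Int.toNat_natCast]
  rw [← himg, sum_image hinj]

theorem sum_periods (left : ℤ) (G : X K → ℝ) (m : ℕ) :
    ∑ v ∈ Ico (0:ℤ) (m * 2 ^ K), G (((left + v : ℤ)) : X K) = m * ∑ y, G y := by
  induction m with
  | zero => simp
  | succ m ih =>
    have h1 : (0:ℤ) ≤ m * 2 ^ K := by positivity
    have e1 : ((m + 1 : ℕ) : ℤ) * 2 ^ K = m * 2 ^ K + 2 ^ K := by push_cast; ring
    rw [e1, Ico_split h1 (by have : (0:ℤ) < 2 ^ K := by positivity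
                             omega), ih, sum_period]
    push_cast
    ring

/-- the sum of `|p|` over any interval of integers containing `x` -/
theorem sum_interval_le (p : X K → ℝ) {L left x : ℤ} (h1 : left ≤ x) (h2 : x < left + L) :
    ∑ v ∈ Ico 0 L, |p (((left + v : ℤ)) : X K)| ≤ 2 * L * MX p ((x : ℤ) : X K) := by
  have hL : 0 < L := by omega
  have hMX := MX_nonneg p ((x : ℤ) : X K)
  have hn : (0:ℝ) < 2 ^ K := by positivity
  rcases le_or_gt L (2 ^ K) with hLK | hLK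
  · -- short intervals
    obtain ⟨l, rfl⟩ : ∃ l : ℕ, L = l := ⟨L.toNat, by omega⟩
    have hl : 0 < l := by exact_mod_cast hL
    have hlK : l ≤ 2 ^ K := by exact_mod_cast hLK
    set κ := Nat.log 2 (2 ^ K / l) with hκ
    have hq : 2 ^ K / l ≠ 0 := (Nat.div_pos hlK hl).ne'
    have c1 : 2 ^ κ ≤ 2 ^ K / l := Nat.pow_log_le_self 2 hq
    have c2 : 2 ^ K / l < 2 ^ (κ + 1) := Nat.lt_pow_succ_log_self (by norm_num) _
    have c3 : 2 ^ κ * l ≤ 2 ^ K := (Nat.le_div_iff_mul_le hl).1 c1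
    have c4 : 2 ^ K < 2 ^ (κ + 1) * l := (Nat.div_lt_iff_lt_mul hl).1 c2
    have hκK : κ ≤ K := by
      have : 2 ^ κ ≤ 2 ^ K := le_trans (Nat.le_mul_of_pos_right _ hl) c3
      exact (Nat.pow_le_pow_iff_right (by norm_num)).1 this
    have c3' : (2:ℝ) ^ κ * l ≤ 2 ^ K := by exact_mod_cast c3
    have c4' : (2:ℝ) ^ K < 2 ^ (κ + 1) * l := by exact_mod_cast c4
    have hinj : Set.InjOn (fun v : ℤ => ((left + v : ℤ) : X K)) (Ico 0 (l : ℤ) : Finset ℤ) := by
      intro u hu v hv huv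
      rw [coe_Ico, Set.mem_Ico] at hu hv
      have := cast_inj (K := K) huv (by rw [abs_lt]; constructor <;> omega)
      omega
    have hav := av_le_MX hκK p ((x : ℤ) : X K)
    unfold av ave at hav
    have hsum : ∑ v ∈ Ico 0 (l : ℤ), |p (((left + v : ℤ)) : X K)|
        ≤ ∑ y : X K, if nrm (((x : ℤ) : X K) - y) ≤ ((2:ℝ) ^ κ)⁻¹ then |p y| else 0 := by
      rw [← sum_image (f := fun y : X K => |p y|) hinj, ← sum_filter]
      refine sum_le_sum_of_subset_of_nonneg ?_ fun _ _ _ => abs_nonneg _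
      intro y hy
      obtain ⟨v, hv, rfl⟩ := mem_image.1 hy
      rw [mem_Ico] at hv
      refine mem_filter.2 ⟨mem_univ _, ?_⟩
      have e1 : (((x : ℤ) : X K)) - ((left + v : ℤ) : X K) = ((x - (left + v) : ℤ) : X K) := by
        push_cast; ring
      show nrm ((((x : ℤ) : X K)) - ((left + v : ℤ) : X K)) ≤ _
      rw [e1, nrm_intCast]
      refine (Per.nrm_le_abs _).trans ?_
      rw [abs_div, abs_of_pos hn, div_le_iff₀ hn, inv_mul_eq_div, le_div_iff₀ (by positivity)]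
      have h3 : |((x - (left + v) : ℤ) : ℝ)| ≤ l := by
        have : |x - (left + v)| ≤ l := by rw [abs_le]; omega
        exact_mod_cast this
      calc |((x - (left + v) : ℤ) : ℝ)| * 2 ^ κ ≤ l * 2 ^ κ := by gcongr
        _ ≤ 2 ^ K := by linarith
    refine hsum.trans ?_
    set S := ∑ y : X K, if nrm (((x : ℤ) : X K) - y) ≤ ((2:ℝ) ^ κ)⁻¹ then |p y| else 0 with hS
    have h4 : 2 ^ κ * (S / 2 ^ K) ≤ MX p ((x : ℤ) : X K) := hav
    have h5 : 2 ^ κ * S ≤ 2 ^ K * MX p ((x : ℤ) : X K) := by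
      have := mul_le_mul_of_nonneg_left h4 hn.le
      calc 2 ^ κ * S = 2 ^ K * (2 ^ κ * (S / 2 ^ K)) := by field_simp
        _ ≤ _ := this
    have h6 : 2 ^ κ * S ≤ 2 ^ κ * (2 * l * MX p ((x : ℤ) : X K)) := by
      calc 2 ^ κ * S ≤ 2 ^ K * MX p ((x : ℤ) : X K) := h5
        _ ≤ (2 ^ (κ + 1) * l) * MX p ((x : ℤ) : X K) := by gcongr
        _ = _ := by rw [pow_succ]; ring
    have h7 := le_of_mul_le_mul_left h6 (by positivity)
    calc S ≤ 2 * l * MX p ((x : ℤ) : X K) := h7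
      _ = _ := by push_cast; ring
  · -- long intervals
    obtain ⟨l, rfl⟩ : ∃ l : ℕ, L = l := ⟨L.toNat, by omega⟩
    have hlK : 2 ^ K < l := by exact_mod_cast hLK
    set m := l / 2 ^ K + 1 with hm
    have c1 : l < m * 2 ^ K := by
      rw [hm, add_mul, one_mul]
      have := Nat.div_add_mod l (2 ^ K)
      have h3 := Nat.mod_lt l (show 0 < 2 ^ K by positivity)
      rw [mul_comm] at this
      omega
    have c2 : m * 2 ^ K ≤ 2 * l := by
      rw [hm, add_mul, one_mul]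
      have := Nat.div_mul_le_self l (2 ^ K)
      omega
    have c2' : (m:ℝ) * 2 ^ K ≤ 2 * l := by exact_mod_cast c2
    have hs : ∑ v ∈ Ico (0:ℤ) l, |p (((left + v : ℤ)) : X K)|
        ≤ ∑ v ∈ Ico (0:ℤ) (m * 2 ^ K), |p (((left + v : ℤ)) : X K)| := by
      refine sum_le_sum_of_subset_of_nonneg ?_ fun _ _ _ => abs_nonneg _
      intro v hv
      rw [mem_Ico] at hv ⊢
      have : (l:ℤ) < m * 2 ^ K := by exact_mod_cast c1
      omega
    refine hs.trans ?_
    rw [sum_periods left (fun y => |p y|) m]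
    have h3 := ave_le_MX p ((x : ℤ) : X K)
    unfold ave at h3
    rw [div_le_iff₀ hn] at h3
    calc (m:ℝ) * ∑ y, |p y| ≤ m * (MX p ((x : ℤ) : X K) * 2 ^ K) := by gcongr
      _ = (m * 2 ^ K) * MX p ((x : ℤ) : X K) := by ring
      _ ≤ (2 * l) * MX p ((x : ℤ) : X K) := by gcongr
      _ = _ := by push_cast; ring

/-! ## characters -/

theorem norm_e (t : ℝ) : ‖e t‖ = 1 := by
  unfold e
  have : 2 * Real.pi * Complex.I * t = ((2 * Real.pi * t : ℝ) : ℂ) * Complex.I := by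
    push_cast; ring
  rw [show (2 * (Real.pi : ℂ) * Complex.I * t) = ((2 * Real.pi * t : ℝ) : ℂ) * Complex.I by
    push_cast; ring]
  exact Complex.norm_exp_ofReal_mul_I _

theorem e_add (s t : ℝ) : e (s + t) = e s * e t := by
  unfold e
  rw [← Complex.exp_add]
  congr 1
  push_cast
  ring

theorem e_sub_le (s t : ℝ) : ‖e s - e t‖ ≤ 2 * Real.pi * |s - t| := by
  have h1 : e s - e t = e t * (Complex.exp (Complex.I * ((2 * Real.pi * (s - t) : ℝ) : ℂ)) - 1) := by
    rw [mul_sub, mul_one]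
    congr 1
    have : Complex.exp (Complex.I * ((2 * Real.pi * (s - t) : ℝ) : ℂ)) = e (s - t) := by
      unfold e
      congr 1
      push_cast
      ring
    rw [this, ← e_add]
    congr 1
    ring
  rw [h1, norm_mul, norm_e, one_mul]
  refine Real.norm_exp_I_mul_ofReal_sub_one_le.trans ?_
  rw [Real.norm_eq_abs, abs_mul, abs_of_pos (by positivity : 0 < 2 * Real.pi)]

/-! ## one scale -/

theorem T_letter {q : ℤ} (hq : 0 < q) (a x : ℤ) (p : X K → ℝ) (ν c n : ℝ) (hn : 0 < n) :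
    ‖T q a (fun y => (p ((y : ℤ) : X K) : ℂ) * e (-(ν * y / n))) x * e (ν * x / n)
      - T q a (fun y => (p ((y : ℤ) : X K) : ℂ) * e (-(c * y / n))) x * e (c * x / n)‖
      ≤ 4 * Real.pi * (|ν - c| * (4 * q) / n) * MX p ((x : ℤ) : X K) := by
  have hq' : (0:ℝ) < q := by exact_mod_cast hq
  have hL : 0 < 4 * q := by omega
  set L := 4 * q with hLdef
  set left := x - (x - a) % L with hleft
  have m1 := Int.emod_nonneg (x - a) hL.ne'
  have m2 := Int.emod_lt_of_pos (x - a) hL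
  have hl1 : left ≤ x := by omega
  have hl2 : x < left + L := by omega
  have hcoef : ‖((sG q ((x - a) % L) / (4 * q) : ℝ) : ℂ)‖ = 1 / (4 * q) := by
    rw [Complex.norm_real, Real.norm_eq_abs, abs_div, abs_of_pos (by positivity : (0:ℝ) < 4 * q)]
    congr 1
    unfold sG
    split_ifs <;> norm_num
  have e0 : T q a (fun y => (p ((y : ℤ) : X K) : ℂ) * e (-(ν * y / n))) x * e (ν * x / n)
      - T q a (fun y => (p ((y : ℤ) : X K) : ℂ) * e (-(c * y / n))) x * e (c * x / n)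
      = ((sG q ((x - a) % L) / (4 * q) : ℝ) : ℂ) * ∑ v ∈ Ico 0 L, (sS q v : ℂ)
        * ((p ((left + v : ℤ) : X K) : ℂ) * (e (ν * (x - (left + v : ℤ)) / n)
          - e (c * (x - (left + v : ℤ)) / n))) := by
    unfold T
    rw [mul_assoc, mul_assoc, ← mul_sub, sum_mul, sum_mul, ← sum_sub_distrib]
    congr 1
    refine sum_congr rfl fun v _ => ?_
    have f1 : e (-(ν * ((left + v : ℤ) : ℝ) / n)) * e (ν * x / n)
        = e (ν * (x - (left + v : ℤ)) / n) := by
      rw [← e_add]; congr 1; ring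
    have f2 : e (-(c * ((left + v : ℤ) : ℝ) / n)) * e (c * x / n)
        = e (c * (x - (left + v : ℤ)) / n) := by
      rw [← e_add]; congr 1; ring
    rw [← f1, ← f2]
    ring
  rw [e0, norm_mul, hcoef]
  have hsum : ‖∑ v ∈ Ico 0 L, (sS q v : ℂ)
        * ((p ((left + v : ℤ) : X K) : ℂ) * (e (ν * (x - (left + v : ℤ)) / n)
          - e (c * (x - (left + v : ℤ)) / n)))‖
      ≤ ∑ v ∈ Ico 0 L, |p ((left + v : ℤ) : X K)| * (2 * Real.pi * (|ν - c| * L / n)) := by
    refine norm_sum_le_of_le _ fun v hv => ?_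
    rw [mem_Ico] at hv
    have hs : ‖(sS q v : ℂ)‖ = 1 := by
      rw [Complex.norm_real, Real.norm_eq_abs]
      unfold sS
      split_ifs <;> norm_num
    rw [norm_mul, hs, one_mul, norm_mul, Complex.norm_real, Real.norm_eq_abs]
    refine mul_le_mul_of_nonneg_left ?_ (abs_nonneg _)
    refine (e_sub_le _ _).trans ?_
    refine mul_le_mul_of_nonneg_left ?_ (by positivity)
    have g1 : ν * (x - (left + v : ℤ)) / n - c * (x - (left + v : ℤ)) / n
        = (ν - c) * (x - (left + v : ℤ)) / n := by ring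
    rw [g1, abs_div, abs_mul, abs_of_pos hn]
    have g2 : |(x : ℝ) - (left + v : ℤ)| ≤ L := by
      have : |x - (left + v)| ≤ L := by rw [abs_le]; omega
      have h' : |((x - (left + v) : ℤ) : ℝ)| ≤ (L : ℝ) := by exact_mod_cast this
      push_cast at h' ⊢
      exact h'
    gcongr
  have hLr : (L : ℝ) = 4 * q := by rw [hLdef]; push_cast; ring
  have hint := sum_interval_le p hl1 hl2
  rw [← sum_mul] at hsum
  have hpos : 0 ≤ 2 * Real.pi * (|ν - c| * L / n) := by
    rw [hLr]; positivity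
  calc 1 / (4 * (q:ℝ)) * _ ≤ 1 / (4 * (q:ℝ)) * ((∑ v ∈ Ico 0 L, |p ((left + v : ℤ) : X K)|)
        * (2 * Real.pi * (|ν - c| * L / n))) := mul_le_mul_of_nonneg_left hsum (by positivity)
    _ ≤ 1 / (4 * (q:ℝ)) * ((2 * L * MX p ((x : ℤ) : X K))
        * (2 * Real.pi * (|ν - c| * L / n))) := by gcongr
    _ = _ := by rw [hLr]; field_simp; ring

/-- **LETTER**: all scales `4 r 2^i`, `i < kap` -/
theorem letter {r : ℕ} (hr : 0 < r) (kap : ℕ) (a x : ℤ) (p : X K → ℝ) (ν c n : ℝ) (hn : 0 < n) :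
    ‖Sh r kap a (fun y => (p ((y : ℤ) : X K) : ℂ) * e (-(ν * y / n))) x * e (ν * x / n)
      - Sh r kap a (fun y => (p ((y : ℤ) : X K) : ℂ) * e (-(c * y / n))) x * e (c * x / n)‖
      ≤ 16 * Real.pi * (|ν - c| * (r * 2 ^ kap) / n) * MX p ((x : ℤ) : X K) := by
  unfold Sh
  rw [sum_mul, sum_mul, ← sum_sub_distrib]
  have hMX := MX_nonneg p ((x : ℤ) : X K)
  have h1 : ∀ i ∈ range kap,
      ‖T ((r:ℤ) * 2 ^ i) a (fun y => (p ((y : ℤ) : X K) : ℂ) * e (-(ν * y / n))) x * e (ν * x / n)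
      - T ((r:ℤ) * 2 ^ i) a (fun y => (p ((y : ℤ) : X K) : ℂ) * e (-(c * y / n))) x
        * e (c * x / n)‖
      ≤ (16 * Real.pi * (|ν - c| * r / n) * MX p ((x : ℤ) : X K)) * 2 ^ i := by
    intro i _
    refine (T_letter (q := (r:ℤ) * 2 ^ i) (by positivity) a x p ν c n hn).trans (le_of_eq ?_)
    push_cast
    ring
  refine (norm_sum_le_of_le _ h1).trans ?_
  rw [← mul_sum]
  have h2 : ∑ i ∈ range kap, (2:ℝ) ^ i ≤ 2 ^ kap := by
    have := geom_sum_eq (show (2:ℝ) ≠ 1 by norm_num) kap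
    rw [this]
    have : (0:ℝ) < 2 ^ kap := by positivity
    linarith
  have hr' : (0:ℝ) < r := by exact_mod_cast hr
  calc _ ≤ (16 * Real.pi * (|ν - c| * r / n) * MX p ((x : ℤ) : X K)) * 2 ^ kap := by gcongr
    _ = _ := by ring

/-- LETTER with the hypothesis of the stopping rule -/
theorem letter_of {r : ℕ} (hr : 0 < r) (kap : ℕ) (a x : ℤ) (p : X K → ℝ) (ν c n C : ℝ)
    (hn : 0 < n) (h : |ν - c| * (r * 2 ^ kap) ≤ C * n) :
    ‖Sh r kap a (fun y => (p ((y : ℤ) : X K) : ℂ) * e (-(ν * y / n))) x * e (ν * x / n)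
      - Sh r kap a (fun y => (p ((y : ℤ) : X K) : ℂ) * e (-(c * y / n))) x * e (c * x / n)‖
      ≤ 16 * Real.pi * C * MX p ((x : ℤ) : X K) := by
  refine (letter hr kap a x p ν c n hn).trans ?_
  have hMX := MX_nonneg p ((x : ℤ) : X K)
  have : |ν - c| * (r * 2 ^ kap) / n ≤ C := by rwa [div_le_iff₀ hn]
  gcongr

/-- the norm form: what is used after the triangle inequality -/
theorem letter_norm {r : ℕ} (hr : 0 < r) (kap : ℕ) (a x : ℤ) (p : X K → ℝ) (ν c n C : ℝ)
    (hn : 0 < n) (h : |ν - c| * (r * 2 ^ kap) ≤ C * n) :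
    ‖Sh r kap a (fun y => (p ((y : ℤ) : X K) : ℂ) * e (-(ν * y / n))) x‖
      ≤ ‖Sh r kap a (fun y => (p ((y : ℤ) : X K) : ℂ) * e (-(c * y / n))) x‖
        + 16 * Real.pi * C * MX p ((x : ℤ) : X K) := by
  have h1 := letter_of hr kap a x p ν c n C hn h
  have h2 := norm_sub_norm_le
    (Sh r kap a (fun y => (p ((y : ℤ) : X K) : ℂ) * e (-(ν * y / n))) x * e (ν * x / n))
    (Sh r kap a (fun y => (p ((y : ℤ) : X K) : ℂ) * e (-(c * y / n))) x * e (c * x / n))
  rw [norm_mul, norm_mul, norm_e, norm_e, mul_one, mul_one] at h2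
  linarith

/-- the character of the grid -/
theorem ch_eq_e (ξ y : ℤ) : ch ξ ((y : ℤ) : X K) = e (ξ * y / 2 ^ K) := by
  unfold ch e
  have : ((ξ : ZMod (2 ^ K))) * ((y : ℤ) : X K) = ((ξ * y : ℤ) : ZMod (2 ^ K)) := by push_cast; ring
  rw [this, ZMod.stdAddChar_coe]
  congr 1
  push_cast
  ring

end Vale.Agent.P091.TOP.H69
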