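import Vale.Agent.P091.TOP.Props
import Vale.Agent.P091.TOP.H69.Letter

/-!
# P091, row P_LET (helper69), literal form of TOP/Props.lean
-/

open Finset

namespace Vale.Agent.P091.TOP.H69

open Vale.Agent.P091.CH

theorem pLET : P_LET := by
  intro A
  refine ⟨16 * Real.pi * A, ?_⟩
  intro K r kap a p c c' x hr _ _ h
  have hn : (0:ℝ) < 2 ^ K := by positivity
  have h1 := letter_of (K := K) (show 0 < r by omega) kap a (x.val : ℤ) p c c' (2 ^ K) A hn h
  have e1 : (((x.val : ℕ) : ℤ) : X K) = x := by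
    rw [Int.cast_natCast]
    exact ZMod.natCast_zmod_val x
  rw [e1] at h1
  have e2 : (((x.val : ℕ) : ℤ) : ℝ) = (x.val : ℝ) := Int.cast_natCast _
  rw [e2] at h1
  rw [mul_comm (Spec.e (c * x.val / 2 ^ K)), mul_comm (Spec.e (c' * x.val / 2 ^ K))]
  exact h1

end Vale.Agent.P091.TOP.H69
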